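import Vale.Agent.P333.R3.H641.Code
import Vale.Agent.P333.H476.K6.Main

set_option autoImplicit false

/-!
P333: the greedy algorithm on strings over {0, 1}.
-/

namespace Vale.Agent.P333.R3.H641

open Vale.Agent.P333

theorem le_list_sum {l : List ℕ} {a : ℕ} (h : a ∈ l) : a ≤ l.sum := by
  induction l with
  | nil => simp at h
  | cons b l ih =>
      rw [List.sum_cons]
      rcases List.mem_cons.1 h with h | h
      · omega
      · have := ih h; omega

/-- every family has a code with long code words over {0, 1} -/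
theorem exists_code (S : List (List ℕ)) (n : ℕ) : ∃ (m : ℕ) (f : List ℕ → List ℕ), n ≤ m ∧
    IsCode f m ∧ ∀ s ∈ S, ∀ a ∈ f s, a < 2 := by
  set r := S.flatten.sum + 1 with hr
  refine ⟨(n + r + 1) + r + 2, blow (n + r + 1) r, by omega, isCode _ _ (by omega) (by omega), ?_⟩
  intro s hs
  refine blow_lt ?_
  intro a ha
  have h1 : a ≤ S.flatten.sum := le_list_sum (List.mem_flatten.2 ⟨s, hs, ha⟩)
  calc a < 2 ^ a := Nat.lt_two_pow_self
    _ ≤ 2 ^ r := Nat.pow_le_pow_right (by norm_num) (by omega)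

/-- Coding of all letters over {0, 1}. -/
theorem transfer (S : List (List ℕ)) (n : ℕ) : ∃ (m : ℕ) (f : List ℕ → List ℕ), n ≤ m ∧ 1 ≤ m ∧
    (∀ s ∈ S, ∀ a ∈ f s, a < 2) ∧ (∀ s, (f s).length = m * s.length) ∧
    (∀ s t, f (s ++ t) = f s ++ f t) ∧
    (∀ s ∈ S, m * s.length ≤ opt (S.map f)) ∧ opt (S.map f) ≤ m * opt S ∧
    (∀ F, Greedy.Reduced S F → Greedy.Reduced (S.map f) (F.map f)) ∧
    ∀ t', Greedy.Output (S.map f) t' ↔ ∃ t, Greedy.Output S t ∧ t' = f t := by
  obtain ⟨m, f, hm, hc, hb⟩ := exists_code S n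
  refine ⟨m, f, hm, hc.pos, hb, hc.len, hc.app, fun s hs => le_opt_blow hc hs, opt_blow_le hc S,
    fun F hF => reduced_blow hc hF, fun t' => ⟨fun h => output_blow_conv hc h, ?_⟩⟩
  rintro ⟨t, ht, rfl⟩
  exact output_blow hc ht

/-- A family of strings over {0, 1} has a shortest common superstring over {0, 1}. -/
theorem binary_opt (S : List (List ℕ)) (hS : ∀ s ∈ S, ∀ a ∈ s, a < 2) :
    ∃ T : List ℕ, IsSuperstring S T ∧ (∀ a ∈ T, a < 2) ∧ T.length = opt S := by
  have hne : {n : ℕ | ∃ T : List ℕ, IsSuperstring S T ∧ T.length = n}.Nonempty :=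
    ⟨S.flatten.length, S.flatten, fun s hs => List.infix_of_mem_flatten hs, rfl⟩
  obtain ⟨T, hT, hl⟩ := Nat.sInf_mem hne
  refine ⟨T.map fun a => if a < 2 then a else 0, ?_, ?_, by rw [List.length_map]; exact hl⟩
  · intro s hs
    have h1 : s.map (fun a => if a < 2 then a else 0) = s := by
      refine (List.map_congr_left fun a ha => ?_).trans (List.map_id s)
      simp [hS s hs a ha]
    rw [← h1]
    exact (hT s hs).map _
  · intro a ha
    obtain ⟨b, -, rfl⟩ := List.mem_map.1 ha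
    split_ifs with h
    · exact h
    · omega

/-- A ratio of the greedy algorithm valid for all binary families is valid for all families. -/
theorem ratio_of_binary (a b : ℕ)
    (h : ∀ (S : List (List ℕ)) (t : List ℕ), (∀ s ∈ S, ∀ c ∈ s, c < 2) → Greedy.Output S t →
      b * t.length ≤ a * opt S)
    (S : List (List ℕ)) (t : List ℕ) (ht : Greedy.Output S t) : b * t.length ≤ a * opt S := by
  obtain ⟨m, f, -, h1, h2, h3, -, -, h4, -, h5⟩ := transfer S 0
  have h6 := h (S.map f) (f t) (by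
    intro s hs
    obtain ⟨s', hs', rfl⟩ := List.mem_map.1 hs
    exact h2 s' hs') ((h5 _).2 ⟨t, ht, rfl⟩)
  rw [h3] at h6
  have h7 : m * (b * t.length) ≤ m * (a * opt S) := by
    calc m * (b * t.length) = b * (m * t.length) := by ring
      _ ≤ a * opt (S.map f) := h6
      _ ≤ a * (m * opt S) := Nat.mul_le_mul_left a h4
      _ = m * (a * opt S) := by ring
  exact Nat.le_of_mul_le_mul_left h7 (by omega)

/-- **The greedy conjecture is false for binary strings.** -/
theorem binary_output (n : ℕ) : ∃ S : List (List ℕ), (∀ s ∈ S, ∀ a ∈ s, a < 2) ∧ n ≤ opt S ∧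
    Greedy.Reduced S S ∧ (∃ t, Greedy.Output S t) ∧
    ∀ t, Greedy.Output S t → 2 * opt S + n < t.length ∧ 2107 * opt S < 1000 * t.length := by
  obtain ⟨m, f, hm, h1, h2, h3, -, h4, h5, h6, h7⟩ :=
    transfer (H476.K6.fam.map H476.Nm.str) (n + 1)
  have h8 : H476.Nm.str H476.K6.s0 ∈ H476.K6.fam.map H476.Nm.str :=
    List.mem_map_of_mem (by simp [H476.K6.fam])
  have h9 := h4 _ h8
  rw [H476.Nm.length_str] at h9
  have h10 : H476.K6.s0.1 = 1105 := by decide +kernel
  rw [h10] at h9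
  have h11 := H476.K6.opt_le
  obtain ⟨t0, ht0⟩ := H476.K6.outs.1
  refine ⟨(H476.K6.fam.map H476.Nm.str).map f, ?_, by omega, h6 _ H476.K6.reduced,
    ⟨f t0, (h7 _).2 ⟨t0, ht0, rfl⟩⟩, ?_⟩
  · intro s hs
    obtain ⟨s', hs', rfl⟩ := List.mem_map.1 hs
    exact h2 s' hs'
  · intro t' ht'
    obtain ⟨t, ht, rfl⟩ := (h7 _).1 ht'
    have h12 := H476.K6.outs.2 t ht
    rw [h3, h12]
    have h13 : opt ((H476.K6.fam.map H476.Nm.str).map f) ≤ m * 8264 :=
      h5.trans (Nat.mul_le_mul_left m h11)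
    constructor <;> omega

end Vale.Agent.P333.R3.H641
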