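import Vale.Agent.P333.R3.H641.Bin
import Vale.Agent.P333.R3.H641.K8.Main

set_option autoImplicit false

/-!
P333: the greedy algorithm on strings over {0, 1}, the family with eight levels.
-/

namespace Vale.Agent.P333.R3.H641

open Vale.Agent.P333

/-- **The greedy conjecture is false for binary strings**, with the factor 2.123. -/
theorem binary_output8 (n : ℕ) : ∃ S : List (List ℕ), (∀ s ∈ S, ∀ a ∈ s, a < 2) ∧ n ≤ opt S ∧
    Greedy.Reduced S S ∧ (∃ t, Greedy.Output S t) ∧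
    ∀ t, Greedy.Output S t → 2 * opt S + n < t.length ∧ 2123 * opt S < 1000 * t.length := by
  obtain ⟨m, f, hm, h1, h2, h3, -, h4, h5, h6, h7⟩ :=
    transfer (K8.fam.map H476.Nm.str) (n + 1)
  have h8 : H476.Nm.str K8.s0 ∈ K8.fam.map H476.Nm.str :=
    List.mem_map_of_mem (by simp [K8.fam])
  have h9 := h4 _ h8
  rw [H476.Nm.length_str] at h9
  have h10 : K8.s0.1 = 1825 := by decide +kernel
  rw [h10] at h9
  have h11 := K8.opt_le
  obtain ⟨t0, ht0⟩ := K8.outs.1
  refine ⟨(K8.fam.map H476.Nm.str).map f, ?_, by omega, h6 _ K8.reduced,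
    ⟨f t0, (h7 _).2 ⟨t0, ht0, rfl⟩⟩, ?_⟩
  · intro s hs
    obtain ⟨s', hs', rfl⟩ := List.mem_map.1 hs
    exact h2 s' hs'
  · intro t' ht'
    obtain ⟨t, ht, rfl⟩ := (h7 _).1 ht'
    have h12 := K8.outs.2 t ht
    rw [h3, h12]
    have h13 : opt ((K8.fam.map H476.Nm.str).map f) ≤ m * 17300 :=
      h5.trans (Nat.mul_le_mul_left m h11)
    constructor <;> omega

end Vale.Agent.P333.R3.H641
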