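import Mathlib
import Vale.Agent.P333.Model
import Vale.Agent.P333.H705.GrDefs

set_option autoImplicit false

/-!
P333: the greedy algorithm commutes with the encoding of every letter by a word over {0, 1}.
-/

namespace Vale.Agent.P333.R3.H641

open Vale.Agent.P333

/-- digit `i` of the code of the letter `a`: a binary digit of `a` if `a < 2 ^ r`, and `a`
otherwise -/
def dg (r a i : ℕ) : ℕ := if a < 2 ^ r then (if a.testBit i then 1 else 0) else a

/-- letter `j` of the code word of the letter `a` -/
def cd (k r a j : ℕ) : ℕ :=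
  if j < k then 1 else if j = k then 0 else if j < k + r + 1 then dg r a (j - k - 1) else 0

/-- the code word `1 ... 1 0 u 0` of the letter `a`, with `k` letters `1` and a word `u` of length
`r`, the binary digits of `a` if `a < 2 ^ r` -/
def blk (k r a : ℕ) : List ℕ := (List.range (k + r + 2)).map (cd k r a)

/-- every letter is replaced by its code word -/
def blow (k r : ℕ) (s : List ℕ) : List ℕ := s.flatMap (blk k r)

@[simp] theorem blk_length (k r a : ℕ) : (blk k r a).length = k + r + 2 := by simp [blk]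

@[simp] theorem blow_nil (k r : ℕ) : blow k r [] = [] := rfl

theorem blow_cons (k r a : ℕ) (s : List ℕ) : blow k r (a :: s) = blk k r a ++ blow k r s := rfl

theorem blow_append (k r : ℕ) (s t : List ℕ) :
    blow k r (s ++ t) = blow k r s ++ blow k r t := by
  simp [blow, List.flatMap_append]

@[simp] theorem blow_length (k r : ℕ) (s : List ℕ) :
    (blow k r s).length = (k + r + 2) * s.length := by
  induction s with
  | nil => simp
  | cons a s ih => rw [blow_cons, List.length_append, blk_length, ih, List.length_cons]; ring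

theorem getElem?_blow (k r : ℕ) (s : List ℕ) : ∀ j : ℕ,
    (blow k r s)[j]? = (s[j / (k + r + 2)]?).map (fun a => cd k r a (j % (k + r + 2))) := by
  induction s with
  | nil => intro j; simp
  | cons a s ih =>
      intro j
      rw [blow_cons]
      by_cases h : j < k + r + 2
      · rw [List.getElem?_append_left (by simpa using h)]
        rw [Nat.div_eq_of_lt h, Nat.mod_eq_of_lt h]
        simp [blk, h]
      · push Not at h
        rw [List.getElem?_append_right (by simpa using h), blk_length, ih]
        have h1 : j / (k + r + 2) = (j - (k + r + 2)) / (k + r + 2) + 1 := by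
          rw [Nat.div_eq_sub_div (by omega) h]
        have h2 : (j - (k + r + 2)) % (k + r + 2) = j % (k + r + 2) := (Nat.mod_eq_sub_mod h).symm
        rw [h1, h2, List.getElem?_cons_succ]

theorem cd_one {k r : ℕ} (a : ℕ) {j : ℕ} (h : j < k) : cd k r a j = 1 := by simp [cd, h]

theorem cd_k (k r a : ℕ) : cd k r a k = 0 := by simp [cd]

theorem cd_last (k r a : ℕ) : cd k r a (k + r + 1) = 0 := by
  unfold cd
  rw [if_neg (by omega), if_neg (by omega), if_neg (by omega)]

theorem cd_dg {k r : ℕ} (a : ℕ) {i : ℕ} (h : i < r) : cd k r a (k + 1 + i) = dg r a i := by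
  unfold cd
  rw [if_neg (by omega), if_neg (by omega), if_pos (by omega)]
  congr 1
  omega

theorem dg_inj {r : ℕ} (hr : 1 ≤ r) {a b : ℕ} (h : ∀ i < r, dg r a i = dg r b i) : a = b := by
  by_cases ha : a < 2 ^ r
  · by_cases hb : b < 2 ^ r
    · apply Nat.eq_of_testBit_eq
      intro i
      by_cases hi : i < r
      · have h1 := h i hi
        unfold dg at h1
        rw [if_pos ha, if_pos hb] at h1
        cases h2 : a.testBit i <;> cases h3 : b.testBit i <;> simp_all
      · have h2 : a < 2 ^ i := lt_of_lt_of_le ha (Nat.pow_le_pow_right (by norm_num) (by omega))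
        have h3 : b < 2 ^ i := lt_of_lt_of_le hb (Nat.pow_le_pow_right (by norm_num) (by omega))
        rw [Nat.testBit_lt_two_pow h2, Nat.testBit_lt_two_pow h3]
    · have h1 := h 0 hr
      have h4 : 2 ≤ 2 ^ r := by
        calc 2 = 2 ^ 1 := rfl
          _ ≤ 2 ^ r := Nat.pow_le_pow_right (by norm_num) hr
      unfold dg at h1
      rw [if_pos ha, if_neg hb] at h1
      split_ifs at h1 <;> omega
  · by_cases hb : b < 2 ^ r
    · have h1 := h 0 hr
      have h4 : 2 ≤ 2 ^ r := by
        calc 2 = 2 ^ 1 := rfl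
          _ ≤ 2 ^ r := Nat.pow_le_pow_right (by norm_num) hr
      unfold dg at h1
      rw [if_neg ha, if_pos hb] at h1
      split_ifs at h1 <;> omega
    · have h1 := h 0 hr
      unfold dg at h1
      rwa [if_neg ha, if_neg hb] at h1

theorem cd_inj {k r : ℕ} (hr : 1 ≤ r) {a b : ℕ} (h : ∀ e < k + r + 2, cd k r a e = cd k r b e) :
    a = b := by
  apply dg_inj hr
  intro i hi
  have h1 := h (k + 1 + i) (by omega)
  rwa [cd_dg a hi, cd_dg b hi] at h1

/-- the code word of a letter below `2 ^ r` is binary -/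
theorem cd_lt {k r a : ℕ} (ha : a < 2 ^ r) (j : ℕ) : cd k r a j < 2 := by
  unfold cd dg
  split_ifs <;> omega

theorem blow_lt {k r : ℕ} {s : List ℕ} (h : ∀ a ∈ s, a < 2 ^ r) : ∀ b ∈ blow k r s, b < 2 := by
  intro b hb
  obtain ⟨a, ha, hb⟩ := List.mem_flatMap.1 hb
  obtain ⟨j, -, rfl⟩ := List.mem_map.1 hb
  exact cd_lt (h a ha) j

theorem blow_inj (k r : ℕ) (hr : 1 ≤ r) {s t : List ℕ} (h : blow k r s = blow k r t) : s = t := by
  apply List.ext_getElem?
  intro i
  have hm : 0 < k + r + 2 := by omega
  have key : ∀ e < k + r + 2, (s[i]?).map (fun a => cd k r a e) =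
      (t[i]?).map (fun a => cd k r a e) := by
    intro e he
    have h1 := getElem?_blow k r s ((k + r + 2) * i + e)
    have h2 := getElem?_blow k r t ((k + r + 2) * i + e)
    rw [h, h2] at h1
    have e1 : ((k + r + 2) * i + e) / (k + r + 2) = i := by
      rw [Nat.mul_add_div hm, Nat.div_eq_of_lt he, Nat.add_zero]
    have e2 : ((k + r + 2) * i + e) % (k + r + 2) = e := by
      rw [Nat.mul_add_mod, Nat.mod_eq_of_lt he]
    rw [e1, e2] at h1
    exact h1.symm
  cases hs : s[i]? with
  | none =>
      cases ht : t[i]? with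
      | none => rfl
      | some b => have h1 := key 0 hm; rw [hs, ht] at h1; simp at h1
  | some a =>
      cases ht : t[i]? with
      | none => have h1 := key 0 hm; rw [hs, ht] at h1; simp at h1
      | some b =>
          have h1 : a = b := cd_inj hr (fun e he => by
            have h2 := key e he
            rw [hs, ht] at h2
            simpa using h2)
          rw [h1]

theorem blow_injective (k r : ℕ) (hr : 1 ≤ r) : Function.Injective (blow k r) :=
  fun _ _ h => blow_inj k r hr h

theorem blow_take (k r : ℕ) (s : List ℕ) (i : ℕ) :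
    blow k r (s.take i) = (blow k r s).take ((k + r + 2) * i) := by
  rcases le_total i s.length with h | h
  · conv_rhs => rw [← List.take_append_drop i s, blow_append]
    rw [List.take_left' ]
    rw [blow_length, List.length_take, min_eq_left h]
  · rw [List.take_of_length_le h, List.take_of_length_le]
    rw [blow_length]; exact Nat.mul_le_mul_left _ h

theorem blow_drop (k r : ℕ) (s : List ℕ) (i : ℕ) :
    blow k r (s.drop i) = (blow k r s).drop ((k + r + 2) * i) := by
  rcases le_total i s.length with h | h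
  · conv_rhs => rw [← List.take_append_drop i s, blow_append]
    rw [List.drop_left']
    rw [blow_length, List.length_take, min_eq_left h]
  · rw [List.drop_of_length_le h, List.drop_of_length_le]
    · rfl
    · rw [blow_length]; exact Nat.mul_le_mul_left _ h

/-- `k` consecutive letters `1` stand only at the beginning of a code word -/
theorem ones_start {k r : ℕ} (hk : r + 1 ≤ k) {t : List ℕ} {p : ℕ}
    (h : ∀ j < k, (blow k r t)[p + j]? = some 1) : (k + r + 2) ∣ p := by
  by_contra hcon
  have hm : 0 < k + r + 2 := by omega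
  have hr0 : p % (k + r + 2) ≠ 0 := fun h0 => hcon (Nat.dvd_of_mod_eq_zero h0)
  have hr1 : p % (k + r + 2) < k + r + 2 := Nat.mod_lt _ hm
  have aux : ∀ j < k, ∀ e < k + r + 2, p % (k + r + 2) + j = e →
      (∀ a, cd k r a e = 0) → False := by
    intro j hj e he hpe hz
    have h1 := h j hj
    rw [getElem?_blow] at h1
    have h2 : (p + j) % (k + r + 2) = e := by
      rw [Nat.add_mod, Nat.mod_eq_of_lt (by omega : j < k + r + 2), hpe, Nat.mod_eq_of_lt he]
    rw [h2] at h1
    cases ht : t[(p + j) / (k + r + 2)]? with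
    | none => rw [ht] at h1; simp at h1
    | some a => rw [ht] at h1; simp [hz a] at h1
  rcases Nat.lt_or_ge k (p % (k + r + 2)) with h1 | h1
  · exact aux (k + r + 1 - p % (k + r + 2)) (by omega) (k + r + 1) (by omega) (by omega)
      (cd_last k r)
  · exact aux (k - p % (k + r + 2)) (by omega) k (by omega) (by omega) (cd_k k r)

theorem prefix_ones {k r : ℕ} {s w : List ℕ} (h : w <+: blow k r s) {j : ℕ} (hj : j < w.length)
    (hjk : j < k) : w[j]? = some 1 := by
  obtain ⟨z, hz⟩ := h
  have h1 : (blow k r s)[j]? = w[j]? := by rw [← hz, List.getElem?_append_left hj]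
  rw [← h1, getElem?_blow, Nat.mod_eq_of_lt (by omega : j < k + r + 2),
    Nat.div_eq_of_lt (by omega : j < k + r + 2)]
  have h2 : j < (blow k r s).length := by rw [← hz, List.length_append]; omega
  rw [blow_length] at h2
  have h3 : 0 < s.length := by
    rcases Nat.eq_zero_or_pos s.length with h0 | h0
    · rw [h0] at h2; omega
    · exact h0
  rw [List.getElem?_eq_getElem h3]
  simp [cd_one _ hjk]

theorem overlap_form (k r : ℕ) (hr : 1 ≤ r) (hk : r + 1 ≤ k) {x y w : List ℕ}
    (h1 : w <:+ blow k r x) (h2 : w <+: blow k r y) :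
    ∃ w', w = blow k r w' ∧ w' <:+ x ∧ w' <+: y := by
  by_cases hw : w = []
  · exact ⟨[], by simp [hw], List.nil_suffix, List.nil_prefix⟩
  · obtain ⟨u, hu⟩ := h1
    have hwl0 : 0 < w.length := List.length_pos_iff.2 hw
    have hl : u.length + w.length = (k + r + 2) * x.length := by
      rw [← List.length_append, hu, blow_length]
    have hdvd : (k + r + 2) ∣ u.length := by
      rcases Nat.lt_or_ge w.length k with hlt | hge
      · exfalso
        have e1 : w[w.length - 1]? = some 1 := prefix_ones h2 (by omega) (by omega)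
        have e2 : (blow k r x)[u.length + (w.length - 1)]? = some 1 := by
          rw [← hu, List.getElem?_append_right (by omega), Nat.add_sub_cancel_left, e1]
        rw [getElem?_blow] at e2
        have hx : 0 < x.length := by
          rcases Nat.eq_zero_or_pos x.length with h0 | h0
          · rw [h0] at hl; omega
          · exact h0
        obtain ⟨c, hc⟩ : ∃ c, x.length = c + 1 := ⟨x.length - 1, by omega⟩
        have e3 : u.length + (w.length - 1) = (k + r + 2) * c + (k + r + 1) := by
          rw [hc, Nat.mul_add, Nat.mul_one] at hl; omega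
        have e4 : (u.length + (w.length - 1)) % (k + r + 2) = k + r + 1 := by
          rw [e3, Nat.mul_add_mod, Nat.mod_eq_of_lt (by omega)]
        rw [e4] at e2
        cases ht : x[(u.length + (w.length - 1)) / (k + r + 2)]? with
        | none => rw [ht] at e2; simp at e2
        | some a => rw [ht] at e2; simp [cd_last] at e2
      · apply ones_start hk (t := x)
        intro j hj
        rw [← hu, List.getElem?_append_right (by omega), Nat.add_sub_cancel_left]
        exact prefix_ones h2 (by omega) hj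
    obtain ⟨c, hc⟩ := hdvd
    have hcx : c ≤ x.length := by
      have : (k + r + 2) * c ≤ (k + r + 2) * x.length := by omega
      exact Nat.le_of_mul_le_mul_left this (by omega)
    have hwl : w.length = (k + r + 2) * (x.length - c) := by
      rw [Nat.mul_sub]; omega
    have e1 : w = blow k r (x.drop c) := by
      rw [blow_drop, ← hu, ← hc, List.drop_left]
    have e2 : w = blow k r (y.take (x.length - c)) := by
      rw [blow_take, ← hwl]; exact List.prefix_iff_eq_take.1 h2
    refine ⟨x.drop c, e1, List.drop_suffix _ _, ?_⟩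
    have : x.drop c = y.take (x.length - c) := blow_inj k r hr (e1.symm.trans e2)
    rw [this]; exact List.take_prefix _ _

theorem blow_infix (k r : ℕ) {s t : List ℕ} (h : s <:+: t) : blow k r s <:+: blow k r t := by
  obtain ⟨u, v, rfl⟩ := h
  rw [blow_append, blow_append]
  exact ⟨_, _, rfl⟩

theorem infix_of_blow (k r : ℕ) (hr : 1 ≤ r) (hk : r + 1 ≤ k) {s t : List ℕ}
    (h : blow k r s <:+: blow k r t) : s <:+: t := by
  by_cases hs : s = []
  · subst hs; exact List.nil_infix
  · obtain ⟨u, v, huv⟩ := h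
    have hs1 : 1 ≤ s.length := List.length_pos_iff.2 hs
    have hsl : k + r + 2 ≤ (blow k r s).length := by
      rw [blow_length]; exact Nat.le_mul_of_pos_right _ hs1
    obtain ⟨c, hc⟩ : (k + r + 2) ∣ u.length := by
      apply ones_start hk (t := t)
      intro j hj
      rw [← huv, List.append_assoc, List.getElem?_append_right (by omega),
        Nat.add_sub_cancel_left, List.getElem?_append_left (by omega)]
      exact prefix_ones (List.prefix_refl _) (by omega) hj
    have h1 : blow k r ((t.drop c).take s.length) = blow k r s := by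
      rw [blow_take, blow_drop, ← huv, List.append_assoc, ← hc, List.drop_left, ← blow_length,
        List.take_left]
    have h2 := blow_inj k r hr h1
    rw [← h2]
    exact (List.take_prefix _ _).isInfix.trans (List.drop_suffix _ _).isInfix

/-- `f` encodes strings letter by letter by words of the same length `m`, and all overlaps and
factors of encoded strings are encoded strings. -/
structure IsCode (f : List ℕ → List ℕ) (m : ℕ) : Prop where
  pos : 1 ≤ m
  inj : Function.Injective f
  app : ∀ s t, f (s ++ t) = f s ++ f t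
  len : ∀ s, (f s).length = m * s.length
  ovl : ∀ {x y w : List ℕ}, w <:+ f x → w <+: f y → ∃ w', w = f w' ∧ w' <:+ x ∧ w' <+: y
  inf : ∀ {s t : List ℕ}, f s <:+: f t → s <:+: t
  take : ∀ (s : List ℕ) (i : ℕ), f (s.take i) = (f s).take (m * i)

theorem isCode (k r : ℕ) (hr : 1 ≤ r) (hk : r + 1 ≤ k) : IsCode (blow k r) (k + r + 2) where
  pos := by omega
  inj := blow_injective k r hr
  app := blow_append k r
  len := blow_length k r
  ovl := overlap_form k r hr hk
  inf := infix_of_blow k r hr hk
  take := blow_take k r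

theorem infix_map {f : List ℕ → List ℕ} {m : ℕ} (hc : IsCode f m) {s t : List ℕ}
    (h : s <:+: t) : f s <:+: f t := by
  obtain ⟨u, v, rfl⟩ := h
  rw [hc.app, hc.app]
  exact ⟨_, _, rfl⟩

theorem isOverlap_blow {f : List ℕ → List ℕ} {m : ℕ} (hc : IsCode f m) {x y : List ℕ} {k : ℕ}
    (h : Greedy.IsOverlap x y k) : Greedy.IsOverlap (f x) (f y) (m * k) := by
  obtain ⟨⟨w, hw, h1, h2⟩, h3⟩ := h
  refine ⟨⟨f w, by rw [hc.len, hw], ?_, ?_⟩, ?_⟩
  · obtain ⟨u, rfl⟩ := h1; rw [hc.app]; exact List.suffix_append _ _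
  · obtain ⟨u, rfl⟩ := h2; rw [hc.app]; exact List.prefix_append _ _
  · rintro l ⟨v, rfl, g1, g2⟩
    obtain ⟨v', rfl, g3, g4⟩ := hc.ovl g1 g2
    rw [hc.len]
    exact Nat.mul_le_mul_left m (h3 ⟨v', rfl, g3, g4⟩)

theorem isOverlap_unique {x y : List ℕ} {k l : ℕ} (h : Greedy.IsOverlap x y k)
    (h' : Greedy.IsOverlap x y l) : k = l := IsGreatest.unique h h'

theorem exists_isOverlap (x y : List ℕ) : ∃ k, Greedy.IsOverlap x y k := by
  classical
  have hne : ({k : ℕ | ∃ w : List ℕ, w.length = k ∧ w <:+ x ∧ w <+: y}).Nonempty :=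
    ⟨0, [], rfl, List.nil_suffix, List.nil_prefix⟩
  have hb : BddAbove {k : ℕ | ∃ w : List ℕ, w.length = k ∧ w <:+ x ∧ w <+: y} := by
    refine ⟨x.length, ?_⟩
    rintro k ⟨w, rfl, h, -⟩
    exact h.length_le
  exact ⟨_, Nat.sSup_mem hne hb, fun k hk => le_csSup hb hk⟩

theorem perm_blow {f : List ℕ → List ℕ} {F G : List (List ℕ)} (h : (F.map f).Perm G) :
    ∃ L, F.Perm L ∧ G = L.map f := by
  have e := congrFun (congrFun (List.eq_map_comp_perm f) G) F
  have h' : Relation.Comp (fun a b => a = List.map f b) (fun a b => a.Perm b) G F := by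
    rw [e]; exact h.symm
  obtain ⟨L, h1, h2⟩ := h'
  exact ⟨L, h2.symm, h1⟩

theorem perm_blow_two {f : List ℕ → List ℕ} {F : List (List ℕ)} {a b : List ℕ} {R : List (List ℕ)}
    (h : (F.map f).Perm (a :: b :: R)) :
    ∃ a' b' R', F.Perm (a' :: b' :: R') ∧ a = f a' ∧ b = f b' ∧
      R = R'.map f := by
  obtain ⟨L, hL, hE⟩ := perm_blow h
  match L, hL, hE with
  | [], _, hE => simp at hE
  | [_], _, hE => simp at hE
  | a' :: b' :: R', hL, hE =>
      simp only [List.map_cons, List.cons.injEq] at hE
      exact ⟨a', b', R', hL, hE.1, hE.2.1, hE.2.2⟩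

theorem merge_blow {f : List ℕ → List ℕ} {m : ℕ} (hc : IsCode f m) (x y : List ℕ) (k : ℕ) :
    f (x.take (x.length - k) ++ y) =
      (f x).take ((f x).length - m * k) ++ f y := by
  rw [hc.app, hc.take, hc.len, Nat.mul_sub]

theorem step_blow {f : List ℕ → List ℕ} {m : ℕ} (hc : IsCode f m) {F F' : List (List ℕ)} (h : Greedy.Step F F') :
    Greedy.Step (F.map f) (F'.map f) := by
  obtain ⟨x, y, R, k, hF, ho, hmax, rfl⟩ := h
  refine ⟨f x, f y, R.map f, m * k, by simpa using hF.map f,
    isOverlap_blow hc ho, ?_, ?_⟩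
  · intro z w R' l hp hl
    obtain ⟨z', w', R'', h1, rfl, rfl, rfl⟩ := perm_blow_two hp
    obtain ⟨l', hl'⟩ := exists_isOverlap z' w'
    rw [isOverlap_unique hl (isOverlap_blow hc hl')]
    exact Nat.mul_le_mul_left m (hmax z' w' R'' l' h1 hl')
  · rw [List.map_cons, merge_blow hc]

theorem step_blow_conv {f : List ℕ → List ℕ} {m : ℕ} (hc : IsCode f m) {F G : List (List ℕ)}
    (h : Greedy.Step (F.map f) G) : ∃ F', Greedy.Step F F' ∧ G = F'.map f := by
  obtain ⟨x, y, R, k, hF, ho, hmax, rfl⟩ := h
  obtain ⟨x', y', R', h1, rfl, rfl, rfl⟩ := perm_blow_two hF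
  obtain ⟨k', hk'⟩ := exists_isOverlap x' y'
  have hk : k = m * k' := isOverlap_unique ho (isOverlap_blow hc hk')
  subst hk
  refine ⟨(x'.take (x'.length - k') ++ y') :: R', ⟨x', y', R', k', h1, hk', ?_, rfl⟩, ?_⟩
  · intro z w R'' l hp hl
    have := hmax (f z) (f w) (R''.map f) (m * l)
      (by simpa using hp.map f) (isOverlap_blow hc hl)
    exact Nat.le_of_mul_le_mul_left this hc.pos
  · rw [List.map_cons, merge_blow hc]

theorem reduced_blow {f : List ℕ → List ℕ} {m : ℕ} (hc : IsCode f m) {S F : List (List ℕ)} (h : Greedy.Reduced S F) :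
    Greedy.Reduced (S.map f) (F.map f) := by
  obtain ⟨h1, h2⟩ := h
  refine ⟨h1.map (hc.inj), ?_⟩
  intro s
  constructor
  · intro hs
    obtain ⟨s', hs', rfl⟩ := List.mem_map.1 hs
    obtain ⟨h3, h4⟩ := (h2 s').1 hs'
    refine ⟨List.mem_map_of_mem h3, ?_⟩
    intro t ht hst
    obtain ⟨t', ht', rfl⟩ := List.mem_map.1 ht
    rw [h4 t' ht' (hc.inf hst)]
  · rintro ⟨hs, h3⟩
    obtain ⟨s', hs', rfl⟩ := List.mem_map.1 hs
    refine List.mem_map_of_mem ((h2 s').2 ⟨hs', ?_⟩)
    intro t ht hst
    exact hc.inj (h3 _ (List.mem_map_of_mem ht) (infix_map hc hst))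

theorem reduced_blow_conv {f : List ℕ → List ℕ} {m : ℕ} (hc : IsCode f m) {S G : List (List ℕ)}
    (h : Greedy.Reduced (S.map f) G) :
    ∃ F, Greedy.Reduced S F ∧ G = F.map f := by
  obtain ⟨h1, h2⟩ := h
  have hall : ∀ s ∈ G, ∃ s', s = f s' := by
    intro s hs
    obtain ⟨s', -, rfl⟩ := List.mem_map.1 ((h2 s).1 hs).1
    exact ⟨s', rfl⟩
  obtain ⟨F, rfl⟩ : ∃ F : List (List ℕ), G = F.map f := by
    clear h1 h2
    induction G with
    | nil => exact ⟨[], rfl⟩
    | cons g G ih =>
        obtain ⟨F, rfl⟩ := ih (fun s hs => hall s (List.mem_cons_of_mem _ hs))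
        obtain ⟨g', rfl⟩ := hall g List.mem_cons_self
        exact ⟨g' :: F, rfl⟩
  refine ⟨F, ⟨h1.of_map _, ?_⟩, rfl⟩
  intro s
  constructor
  · intro hs
    obtain ⟨h3, h4⟩ := (h2 (f s)).1 (List.mem_map_of_mem hs)
    refine ⟨(List.mem_map_of_injective (hc.inj)).1 h3, ?_⟩
    intro t ht hst
    exact hc.inj (h4 _ (List.mem_map_of_mem ht) (infix_map hc hst))
  · rintro ⟨hs, h3⟩
    refine (List.mem_map_of_injective (hc.inj)).1 ((h2 _).2
      ⟨List.mem_map_of_mem hs, ?_⟩)
    intro t ht hst
    obtain ⟨t', ht', rfl⟩ := List.mem_map.1 ht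
    rw [h3 t' ht' (hc.inf hst)]

theorem output_blow {f : List ℕ → List ℕ} {m : ℕ} (hc : IsCode f m) {S : List (List ℕ)} {t : List ℕ}
    (h : Greedy.Output S t) : Greedy.Output (S.map f) (f t) := by
  obtain ⟨F, h1, h2⟩ := h
  refine ⟨F.map f, reduced_blow hc h1, ?_⟩
  have : ∀ G, Relation.ReflTransGen Greedy.Step F G →
      Relation.ReflTransGen Greedy.Step (F.map f) (G.map f) := by
    intro G hG
    induction hG with
    | refl => exact Relation.ReflTransGen.refl
    | tail _ hs ih => exact ih.tail (step_blow hc hs)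
  simpa using this _ h2

theorem output_blow_conv {f : List ℕ → List ℕ} {m : ℕ} (hc : IsCode f m) {S : List (List ℕ)} {t' : List ℕ}
    (h : Greedy.Output (S.map f) t') :
    ∃ t, Greedy.Output S t ∧ t' = f t := by
  obtain ⟨G, h1, h2⟩ := h
  obtain ⟨F, h3, rfl⟩ := reduced_blow_conv hc h1
  have : ∀ G, Relation.ReflTransGen Greedy.Step (F.map f) G →
      ∃ F', Relation.ReflTransGen Greedy.Step F F' ∧ G = F'.map f := by
    intro G hG
    induction hG with
    | refl => exact ⟨F, Relation.ReflTransGen.refl, rfl⟩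
    | tail _ hs ih =>
        obtain ⟨F', h4, rfl⟩ := ih
        obtain ⟨F'', h5, h6⟩ := step_blow_conv hc hs
        exact ⟨F'', h4.tail h5, h6⟩
  obtain ⟨F', h4, h5⟩ := this _ h2
  match F', h4, h5 with
  | [], _, h5 => simp at h5
  | [t], h4, h5 =>
      simp only [List.map_cons, List.map_nil, List.cons.injEq, and_true] at h5
      exact ⟨t, ⟨F, h3, h4⟩, h5⟩
  | _ :: _ :: _, _, h5 => simp at h5

theorem isSuperstring_blow {f : List ℕ → List ℕ} {m : ℕ} (hc : IsCode f m) {S : List (List ℕ)} {T : List ℕ} (h : IsSuperstring S T) :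
    IsSuperstring (S.map f) (f T) := by
  intro s hs
  obtain ⟨s', hs', rfl⟩ := List.mem_map.1 hs
  exact infix_map hc (h s' hs')

theorem exists_superstring (S : List (List ℕ)) :
    ∃ T : List ℕ, IsSuperstring S T ∧ T.length = opt S := by
  have hne : ({n : ℕ | ∃ T : List ℕ, IsSuperstring S T ∧ T.length = n}).Nonempty := by
    refine ⟨_, S.flatten, ?_, rfl⟩
    intro s hs
    exact List.infix_of_mem_flatten hs
  exact Nat.sInf_mem hne

theorem opt_blow_le {f : List ℕ → List ℕ} {m : ℕ} (hc : IsCode f m) (S : List (List ℕ)) : opt (S.map f) ≤ m * opt S := by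
  obtain ⟨T, h1, h2⟩ := exists_superstring S
  rw [← h2, ← hc.len]
  exact Nat.sInf_le ⟨_, isSuperstring_blow hc h1, rfl⟩

theorem le_opt_blow {f : List ℕ → List ℕ} {m : ℕ} (hc : IsCode f m) {S : List (List ℕ)} {s : List ℕ} (hs : s ∈ S) :
    m * s.length ≤ opt (S.map f) := by
  obtain ⟨T, h1, h2⟩ := exists_superstring (S.map f)
  rw [← h2, ← hc.len]
  exact (h1 _ (List.mem_map_of_mem hs)).length_le


end Vale.Agent.P333.R3.H641
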